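import Vale.Agent.P088.R2.H437.Z0.Sl
import Vale.Agent.P088.R2.H808.Z0.Num

/-!
# P088, stage 3, zone 0: the smallness and the numbers of the two slots

On `Hz`: `SmQ` without fields, with the forms `Q1`, `Q2` and the margin `c₂ s Φ'(u) / 4`, and the
numbers `Ns`, `Nz` of `zone0N`.
-/

open Set Filter
open scoped ContDiff Topology

noncomputable section

namespace Vale.Agent.P088.R2.H794.Z0

open Vale.Agent.P088.LR hiding dv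
open Vale.Agent.P088.HY Vale.Agent.P088.R2.H961.GW Vale.Agent.P088.R2.H644.Ch
open Vale.Agent.P088.R2.H437.Z0
open Vale.Agent.P088.R2.H464.Cu (rq bf Nr sx sy)
open Vale.Agent.P088.R2.H747.SW (qq dq SmQ)
open Vale.Agent.P088.R2.H808.Zq (Ns Nz xf)
open Vale.Agent.P088.R2.H86.Z (El)
open Vale.Agent.P088.R2.H165 (Tab.Nu)

variable {n : ℕ}

/-! ## One derivative -/

/-- `f` is bounded by `b₀`, its derivatives in unit directions by `b₁`. -/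
structure B1 (Ω : Set (VV n)) (f : VV n → ℝ) (b₀ b₁ : ℝ) (z : VV n) : Prop where
  sm : ContDiffOn ℝ ∞ f Ω
  b0 : |f z| ≤ b₀
  b1 : ∀ w, ‖w‖ ≤ 1 → |dv w f z| ≤ b₁

section cal

variable {Ω : Set (VV n)} {f g : VV n → ℝ} {a₀ a₁ b₀ b₁ : ℝ} {z : VV n}

theorem B1.a0 (h : B1 Ω f a₀ a₁ z) : 0 ≤ a₀ := (abs_nonneg _).trans h.b0

theorem B1.a1 (h : B1 Ω f a₀ a₁ z) : 0 ≤ a₁ := (abs_nonneg _).trans (h.b1 0 (by simp))

theorem B1.mono (h : B1 Ω f a₀ a₁ z) (h0 : a₀ ≤ b₀) (h1 : a₁ ≤ b₁) : B1 Ω f b₀ b₁ z :=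
  ⟨h.sm, h.b0.trans h0, fun w hw => (h.b1 w hw).trans h1⟩

theorem B1.add (hΩ : IsOpen Ω) (hz : z ∈ Ω) (hf : B1 Ω f a₀ a₁ z) (hg : B1 Ω g b₀ b₁ z) :
    B1 Ω (fun z => f z + g z) (a₀ + b₀) (a₁ + b₁) z where
  sm := hf.sm.add hg.sm
  b0 := (abs_add_le _ _).trans (add_le_add hf.b0 hg.b0)
  b1 w hw := by
    rw [dv_add hΩ hf.sm hg.sm w hz]
    exact (abs_add_le _ _).trans (add_le_add (hf.b1 w hw) (hg.b1 w hw))

theorem B1.mul (hΩ : IsOpen Ω) (hz : z ∈ Ω) (hf : B1 Ω f a₀ a₁ z) (hg : B1 Ω g b₀ b₁ z) :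
    B1 Ω (fun z => f z * g z) (a₀ * b₀) (a₀ * b₁ + a₁ * b₀) z where
  sm := hf.sm.mul hg.sm
  b0 := by
    rw [abs_mul]
    have := hf.b0; have := hg.b0; have := hf.a0
    gcongr
  b1 w hw := by
    rw [dv_mul hΩ hf.sm hg.sm w hz]
    refine (abs_add_le _ _).trans ?_
    rw [abs_mul, abs_mul]
    have h1 := hf.b0; have h2 := hg.b0; have h3 := hf.a0; have h4 := hg.a0
    have h5 := hf.b1 w hw; have h6 := hg.b1 w hw; have h7 := hf.a1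
    calc |dv w f z| * |g z| + |f z| * |dv w g z| ≤ a₁ * b₀ + a₀ * b₁ := by gcongr
      _ = _ := by ring

theorem B1.const (c : ℝ) : B1 Ω (fun _ => c) |c| 0 z where
  sm := contDiffOn_const
  b0 := le_rfl
  b1 w _ := by unfold dv; simp

theorem B1.cmul (hΩ : IsOpen Ω) (hz : z ∈ Ω) {c : ℝ} (hc : 0 ≤ c) (hf : B1 Ω f a₀ a₁ z) :
    B1 Ω (fun z => c * f z) (c * a₀) (c * a₁) z :=
  ((B1.const c).mul hΩ hz hf).mono (by rw [abs_of_nonneg hc])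
    (by rw [abs_of_nonneg hc]; linarith)

theorem B1.sum {κ : Type*} (S : Finset κ) (hΩ : IsOpen Ω) (hz : z ∈ Ω) {F : κ → VV n → ℝ}
    (hF : ∀ i ∈ S, B1 Ω (F i) a₀ a₁ z) :
    B1 Ω (fun z => ∑ i ∈ S, F i z) (S.card * a₀) (S.card * a₁) z := by
  classical
  induction S using Finset.induction_on with
  | empty =>
    simp only [Finset.sum_empty, Finset.card_empty, Nat.cast_zero, zero_mul]
    exact (B1.const 0).mono (by simp) le_rfl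
  | insert i S hi ih =>
    simp only [Finset.sum_insert hi]
    rw [Finset.card_insert_of_notMem hi]
    have := B1.add hΩ hz (hF i (Finset.mem_insert_self _ _))
      (ih fun j hj => hF j (Finset.mem_insert_of_mem hj))
    refine this.mono ?_ ?_ <;> push_cast <;> linarith

theorem B1.congr (hΩ : IsOpen Ω) (hz : z ∈ Ω) (e : ∀ y ∈ Ω, g y = f y) (hf : B1 Ω f a₀ a₁ z) :
    B1 Ω g a₀ a₁ z where
  sm := hf.sm.congr e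
  b0 := by rw [e z hz]; exact hf.b0
  b1 w hw := by rw [dv_congr hΩ e w hz]; exact hf.b1 w hw

theorem B1.of_J (hb : 0 ≤ b₁) (h : J Ω f b₀ b₁ z) : B1 Ω f b₀ b₁ z :=
  ⟨h.sm, h.b0, fun w hw => (h.b1 w).trans (mul_le_of_le_one_right hb hw)⟩

theorem B1.comp {Ψ : ℝ → ℝ} {b : ℝ} (hΨ : ContDiff ℝ ∞ Ψ) (hΩ : IsOpen Ω) (hz : z ∈ Ω)
    (hf : ContDiffOn ℝ ∞ f Ω) (h1 : ∀ w, ‖w‖ ≤ 1 → |dv w f z| ≤ b) :
    B1 Ω (fun z => Ψ (f z)) |Ψ (f z)| (|deriv Ψ (f z)| * b) z where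
  sm := hΨ.comp_contDiffOn hf
  b0 := le_rfl
  b1 w hw := by
    have := (hv_comp (Ψ := Ψ) (hΨ.differentiable (by simp) _) (hv_of (w := w) (df_on hΩ hf hz))).e
    have e : dv w (fun z => Ψ (f z)) z = deriv Ψ (f z) * dv w f z := this
    rw [e, abs_mul]
    exact mul_le_mul_of_nonneg_left (h1 w hw) (abs_nonneg _)

theorem B1_pr {O : Set (V n)} {h : V n → ℝ} {P : VV n →L[ℝ] V n} (hP : ∀ w, ‖P w‖ ≤ ‖w‖)
    (hO : IsOpen O) (hΩO : ∀ z ∈ Ω, P z ∈ O) (hh : ContDiffOn ℝ ∞ h O) (hz : z ∈ Ω)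
    (h0 : |h (P z)| ≤ b₀) (h1 : ∀ w, ‖w‖ ≤ 1 → |fderiv ℝ h (P z) w| ≤ b₁) :
    B1 Ω (fun z => h (P z)) b₀ b₁ z where
  sm := hh.comp P.contDiff.contDiffOn hΩO
  b0 := h0
  b1 w hw := by
    rw [dv_pr hO (hΩO z hz) hh w]
    exact h1 _ ((hP w).trans hw)

end cal

/-! ## Constants -/

/-- The constant of the derivatives of the weight. -/
def pW (C Λ a : ℝ) : ℝ := C * (Λ + 1 + 1 / a)

/-- The size of the forms. -/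
def a0 (n : ℕ) (Λ₀ : ℝ) : ℝ := 4 * n ^ 2 * Λ₀ ^ 2 + 2

/-- The size of the derivatives of `s Dl`. -/
def bv (n : ℕ) (Λ₀ Λ : ℝ) : ℝ := n * (Λ * (2 + Λ₀))

/-- The size of the derivatives of the forms. -/
def a1 (n : ℕ) (Λ₀ Λ : ℝ) : ℝ :=
  2 * (2 * n * Λ₀) * bv n Λ₀ Λ + 2 * Λ₀ * (4 * n ^ 2 * Λ₀ ^ 2) + Λ * (1 + 4 * Λ₀)

/-- The constant of the smallness of `δ`. -/
def kS (n : ℕ) (Λ₀ a Λ C : ℝ) : ℝ := n ^ 2 * ((a0 n Λ₀ + a1 n Λ₀ Λ) * pW C Λ a) + 1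

/-- The constant of the numbers. -/
def C1 (n : ℕ) (Λ₀ a Λ C c₂ : ℝ) : ℝ :=
  c₂ * (4 * n ^ 3 * Λ₀ ^ 2 + 2 * n ^ 2) + n * pW C Λ a ^ 2 + n ^ 2 * ((2 + Λ) * pW C Λ a) +
    n * (2 * Λ₀ * Λ) ^ 2 + (1 + 1 / a) + c₂ + 1

theorem pW_pos {C Λ a : ℝ} (hC : 1 ≤ C) (hΛ : 1 ≤ Λ) (ha : 0 < a) : 0 < pW C Λ a := by
  unfold pW; positivity

theorem a0_pos (n : ℕ) (Λ₀ : ℝ) : 0 < a0 n Λ₀ := by unfold a0; positivity

theorem bv_nonneg (n : ℕ) {Λ₀ Λ : ℝ} (hΛ₀ : 1 ≤ Λ₀) (hΛ : 1 ≤ Λ) : 0 ≤ bv n Λ₀ Λ := by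
  unfold bv; positivity

theorem a1_pos (n : ℕ) {Λ₀ Λ : ℝ} (hΛ₀ : 1 ≤ Λ₀) (hΛ : 1 ≤ Λ) : 0 < a1 n Λ₀ Λ := by
  have := bv_nonneg n hΛ₀ hΛ
  unfold a1; positivity

theorem kS_pos (n : ℕ) {Λ₀ a Λ C : ℝ} (hΛ₀ : 1 ≤ Λ₀) (hΛ : 1 ≤ Λ) (ha : 0 < a) (hC : 1 ≤ C) :
    0 < kS n Λ₀ a Λ C := by
  have := pW_pos hC hΛ ha
  have := a0_pos n Λ₀
  have := a1_pos n hΛ₀ hΛ
  unfold kS; positivity

theorem C1_ge (n : ℕ) {Λ₀ a Λ C c₂ : ℝ} (hΛ₀ : 1 ≤ Λ₀) (hΛ : 1 ≤ Λ) (ha : 0 < a) (hC : 1 ≤ C)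
    (hc₂ : 0 ≤ c₂) : c₂ * (4 * n ^ 3 * Λ₀ ^ 2 + 2 * n ^ 2) ≤ C1 n Λ₀ a Λ C c₂ ∧
    n * pW C Λ a ^ 2 ≤ C1 n Λ₀ a Λ C c₂ ∧ n ^ 2 * ((2 + Λ) * pW C Λ a) ≤ C1 n Λ₀ a Λ C c₂ ∧
    n * (2 * Λ₀ * Λ) ^ 2 ≤ C1 n Λ₀ a Λ C c₂ ∧ 1 + 1 / a ≤ C1 n Λ₀ a Λ C c₂ ∧
    c₂ ≤ C1 n Λ₀ a Λ C c₂ ∧ 1 ≤ C1 n Λ₀ a Λ C c₂ := by
  have hp := pW_pos hC hΛ ha
  have h1 : 0 ≤ c₂ * (4 * n ^ 3 * Λ₀ ^ 2 + 2 * n ^ 2) := by positivity
  have h2 : 0 ≤ n * pW C Λ a ^ 2 := by positivity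
  have h3 : 0 ≤ n ^ 2 * ((2 + Λ) * pW C Λ a) := by positivity
  have h4 : 0 ≤ n * (2 * Λ₀ * Λ) ^ 2 := by positivity
  have h5 : 0 ≤ 1 + 1 / a := by positivity
  unfold C1
  refine ⟨?_, ?_, ?_, ?_, ?_, ?_, ?_⟩ <;> linarith

/-- The margin. -/
def mg (c₂ s : ℝ) (l : V n → ℝ) (Φ : ℝ → ℝ) (z : VV n) : ℝ := c₂ / 4 * (s * deriv Φ (uf l z))

/-- The form of a slot. -/
def Qs (c₂ s : ℝ) (l : V n → ℝ) (Φ : ℝ → ℝ) (ν : Fin n → VV n → ℝ) (σ : Sl (VV n) (Fin n))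
    (i j : Fin n) (z : VV n) : ℝ :=
  c₂ * (Real.exp (uf l z) * (ν i z * ν j z) + s * deriv Φ (uf l z) * σ.s i j z)

theorem Q1_eq (c₂ s : ℝ) (l : V n → ℝ) (s₁ : MF n) (Φ : ℝ → ℝ) :
    Q1 c₂ s l s₁ Φ = Qs c₂ s l Φ (fun i z => nu s₁ l z.1 i) (sx s₁) := rfl

theorem Q2_eq (c₂ s : ℝ) (l : V n → ℝ) (s₂ : MF n) (Φ : ℝ → ℝ) :
    Q2 c₂ s l s₂ Φ = Qs c₂ s l Φ (fun i z => nu s₂ l z.2 i) (sy s₂) := rfl

theorem Q1_sy {s₁ : MF n} (hs : ∀ x i j, s₁ x i j = s₁ x j i) (c₂ s : ℝ) (l : V n → ℝ)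
    (Φ : ℝ → ℝ) (i j : Fin n) (z : VV n) : Q1 c₂ s l s₁ Φ i j z = Q1 c₂ s l s₁ Φ j i z := by
  unfold Q1; rw [hs z.1 i j]; ring

theorem Q2_sy {s₂ : MF n} (hs : ∀ x i j, s₂ x i j = s₂ x j i) (c₂ s : ℝ) (l : V n → ℝ)
    (Φ : ℝ → ℝ) (i j : Fin n) (z : VV n) : Q2 c₂ s l s₂ Φ i j z = Q2 c₂ s l s₂ Φ j i z := by
  unfold Q2; rw [hs z.2 i j]; ring

/-! ## Ellipticity and the size of the metric -/

theorem el_bf {s' : Matrix (Fin n) (Fin n) ℝ} {ε : ℝ} (hε : n * ε ≤ 1 / 2)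
    (h : ∀ i j, |s' i j - (1 : Matrix (Fin n) (Fin n) ℝ) i j| ≤ ε) (v : V n) :
    ∑ i, ∑ j, s' i j * v i * v j ≤ 2 * ∑ i, v i ^ 2 ∧
      ∑ i, v i ^ 2 ≤ 2 * ∑ i, ∑ j, s' i j * v i * v j := by
  have e1 : ∑ i, ∑ j, s' i j * v i * v j = ∑ i, v i ^ 2 +
      ∑ i, ∑ j, (s' i j - (1 : Matrix (Fin n) (Fin n) ℝ) i j) * v i * v j := by
    simp only [sub_mul, Finset.sum_sub_distrib, Matrix.one_apply]
    simp [pow_two]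
  have h1 : |∑ i, ∑ j, (s' i j - (1 : Matrix (Fin n) (Fin n) ℝ) i j) * v i * v j| ≤
      n * ε * ∑ i, v i ^ 2 := by
    have h2 : ∀ i j, |(s' i j - (1 : Matrix (Fin n) (Fin n) ℝ) i j) * v i * v j| ≤
        ε * (1 / 2 * v i ^ 2 + 1 / 2 * v j ^ 2) := by
      intro i j
      rw [abs_mul, abs_mul, mul_assoc]
      have h3 : |v i| * |v j| ≤ 1 / 2 * v i ^ 2 + 1 / 2 * v j ^ 2 := by
        nlinarith [sq_nonneg (|v i| - |v j|), sq_abs (v i), sq_abs (v j)]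
      have h4 := h i j
      have h5 : 0 ≤ ε := (abs_nonneg _).trans h4
      gcongr
    refine (Finset.abs_sum_le_sum_abs _ _).trans ?_
    refine (Finset.sum_le_sum fun i _ => (Finset.abs_sum_le_sum_abs _ _).trans
      (Finset.sum_le_sum fun j _ => h2 i j)).trans (le_of_eq ?_)
    simp only [← Finset.mul_sum, Finset.sum_add_distrib, Finset.sum_const, Finset.card_univ,
      Fintype.card_fin, nsmul_eq_mul]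
    ring
  have h0 : 0 ≤ ∑ i, v i ^ 2 := Finset.sum_nonneg fun i _ => sq_nonneg _
  have h2 := mul_le_mul_of_nonneg_right hε h0
  have h3 := abs_le.1 h1
  rw [e1]
  constructor <;> linarith [h3.1, h3.2]

theorem sK_of {σ : Sl (VV n) (Fin n)} {L : ℝ} {Ω : Set (VV n)} {z : VV n} (h : Sg σ L Ω z)
    (A B : Fin n → ℝ) : (∑ i, ∑ j, σ.s i j z * A i * B j) ^ 2 ≤
      (2 * n : ℝ) ^ 2 * ((∑ i, A i ^ 2) * ∑ i, B i ^ 2) := by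
  have h1 : |∑ i, ∑ j, σ.s i j z * A i * B j| ≤ 2 * ((∑ i, |A i|) * ∑ j, |B j|) := by
    refine (Finset.abs_sum_le_sum_abs _ _).trans ?_
    rw [Finset.sum_mul_sum, Finset.mul_sum]
    refine Finset.sum_le_sum fun i _ => ?_
    refine (Finset.abs_sum_le_sum_abs _ _).trans ?_
    rw [Finset.mul_sum]
    refine Finset.sum_le_sum fun j _ => ?_
    rw [abs_mul, abs_mul, mul_assoc]
    have := (h.j0 i j).b0
    gcongr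
  have cs : ∀ A : Fin n → ℝ, (∑ i, |A i|) ^ 2 ≤ n * ∑ i, A i ^ 2 := by
    intro A
    have := sq_sum_le_card_mul_sum_sq (s := (Finset.univ : Finset (Fin n))) (f := fun i => |A i|)
    simpa only [Finset.card_univ, Fintype.card_fin, sq_abs] using this
  have a0 : 0 ≤ ∑ i, |A i| := Finset.sum_nonneg fun i _ => abs_nonneg _
  have b0 : 0 ≤ ∑ i, |B i| := Finset.sum_nonneg fun i _ => abs_nonneg _
  rw [← sq_abs]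
  calc |∑ i, ∑ j, σ.s i j z * A i * B j| ^ 2 ≤ (2 * ((∑ i, |A i|) * ∑ j, |B j|)) ^ 2 := by gcongr
    _ = 4 * ((∑ i, |A i|) ^ 2 * (∑ j, |B j|) ^ 2) := by ring
    _ ≤ 4 * ((n * ∑ i, A i ^ 2) * (n * ∑ i, B i ^ 2)) := by
      have h1 := cs A
      have h2 := cs B
      gcongr
    _ = _ := by ring

/-! ## The fields vanish -/

theorem dF_zero (σ : Sl (VV n) (Fin n)) (W : VV n → ℝ) (z : VV n) :
    H960.W.dF σ (fun _ _ => (0 : ℝ)) W z = 0 := by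
  unfold H960.W.dF
  have e : (fun z : VV n => σ.F W z * (0 : ℝ)) = fun _ => 0 := by funext y; ring
  refine Finset.sum_eq_zero fun j _ => ?_
  rw [e]
  have : σ.D j (fun _ : VV n => (0 : ℝ)) z = 0 := by unfold Sl.D; simp
  rw [this]; ring

theorem eC_zero (σ : Sl (VV n) (Fin n)) (v W a : VV n → ℝ) (z : VV n) :
    H960.W.eC σ (fun _ _ => (0 : ℝ)) v W a z = 0 := by
  have hD : ∀ j, σ.D j (fun _ : VV n => (0 : ℝ)) z = 0 := by intro j; unfold Sl.D; simp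
  unfold H960.W.eC H960.W.cY
  simp [hD]

/-! ## The slots on `Hz` -/

section slot

variable {Λ₀ a c₁ β Λ δ ε s R C c₂ η : ℝ} {l : V n → ℝ} {g s₁ s₂ : MF n} {Φ S : ℝ → ℝ}
  {O : Set (V n)} {Ω : Set (VV n)} {z : VV n} {σ : Sl (VV n) (Fin n)} {W : VV n → ℝ}
  {ν : Fin n → VV n → ℝ}

theorem u1_le (h : Hz Λ₀ a c₁ β Λ δ ε s R l g s₁ s₂ Φ S O Ω) (hΛ₀ : 1 ≤ Λ₀) (hz : z ∈ Ω)
    (w : VV n) (hw : ‖w‖ ≤ 1) : |dv w (uf l) z| ≤ 2 * Λ₀ := by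
  obtain ⟨hx, hy, -⟩ := h.dt.pt z hz
  rw [h.uv hz w]
  refine (abs_add_le _ _).trans ?_
  have h1 := h.l1 hx w.1
  have h2 := h.l1 hy w.2
  have h3 := (norm_fst_le w).trans hw
  have h4 := (norm_snd_le w).trans hw
  calc _ ≤ Λ₀ * ‖w.1‖ + Λ₀ * ‖w.2‖ := add_le_add h1 h2
    _ ≤ Λ₀ * 1 + Λ₀ * 1 := by gcongr
    _ = _ := by ring

theorem b_E (h : Hz Λ₀ a c₁ β Λ δ ε s R l g s₁ s₂ Φ S O Ω) (hΛ₀ : 1 ≤ Λ₀) (hz : z ∈ Ω) :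
    B1 Ω (fun z => Real.exp (uf l z)) (Real.exp (uf l z)) (2 * Λ₀ * Real.exp (uf l z)) z := by
  refine (B1.comp Real.contDiff_exp h.dt.oΩ hz h.su (u1_le h hΛ₀ hz)).mono ?_ ?_
  · rw [abs_of_pos (Real.exp_pos _)]
  · rw [Real.deriv_exp, abs_of_pos (Real.exp_pos _)]
    linarith

theorem b_N (h : Hz Λ₀ a c₁ β Λ δ ε s R l g s₁ s₂ Φ S O Ω) (hΛ₀ : 1 ≤ Λ₀) (hz : z ∈ Ω) :
    B1 Ω (fun z => deriv Φ (uf l z)) (deriv Φ (uf l z))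
      (2 * Λ₀ * (Λ * deriv Φ (uf l z))) z := by
  refine (B1.comp (dS h.dt.sΦ) h.dt.oΩ hz h.su (u1_le h hΛ₀ hz)).mono ?_ ?_
  · rw [abs_of_pos (h.dt.N0 z hz)]
  · rw [abs_of_pos (h.dt.K0 z hz), mul_comm]
    have := h.KN z hz
    gcongr

theorem b_W (h : Hz Λ₀ a c₁ β Λ δ ε s R l g s₁ s₂ Φ S O Ω) (ha : 0 < a) (hΛ : 1 ≤ Λ)
    (hC : 1 ≤ C) (hz : z ∈ Ω) (wb : WB C R l Φ (W0 l g Φ S) z)
    (hW : ∀ w ∈ Ω, W w = W0 l g Φ S w) {e : VV n} (he : ‖e‖ ≤ 1) :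
    B1 Ω (dv e W) (pW C Λ a * deriv Φ (uf l z)) (pW C Λ a * deriv Φ (uf l z)) z := by
  refine B1.congr h.dt.oΩ hz (fun y hy => dv_congr h.dt.oΩ hW e hy) ?_
  have hN := h.dt.N0 z hz
  have hE := Real.exp_pos (uf l z)
  have hK := h.dt.K0 z hz
  have KN := h.KN z hz
  have R1 := h.dt.R1
  have hE2 : Real.exp (uf l z) ≤ 1 / a * deriv Φ (uf l z) := by
    have := h.EN z hz
    rw [one_div, ← div_eq_inv_mul, le_div_iff₀ ha]; linarith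
  have n0 := norm_nonneg e
  refine ⟨sm_dv h.dt.oΩ h.sW e, ?_, fun w hw => ?_⟩
  · refine (wb.d1 e).trans ?_
    refine (mul_le_of_le_one_right (by positivity) he).trans ?_
    unfold pW
    rw [mul_assoc]
    have : 0 ≤ Λ * deriv Φ (uf l z) := by positivity
    refine mul_le_mul_of_nonneg_left ?_ (by linarith)
    linarith
  · refine (wb.d2 w e).trans ?_
    have w0 := norm_nonneg w
    have k0 : 0 ≤ C * (deriv (deriv Φ) (uf l z) + Real.exp (uf l z) + deriv Φ (uf l z) / R) := by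
      positivity
    refine (mul_le_of_le_one_right (by positivity) he).trans ?_
    refine (mul_le_of_le_one_right k0 hw).trans ?_
    unfold pW
    rw [mul_assoc]
    have : deriv Φ (uf l z) / R ≤ deriv Φ (uf l z) := div_le_self hN.le R1
    refine mul_le_mul_of_nonneg_left ?_ (by linarith)
    linarith

theorem b_nu (h : Hz Λ₀ a c₁ β Λ δ ε s R l g s₁ s₂ Φ S O Ω) (hΛ₀ : 1 ≤ Λ₀) (hΛ : 1 ≤ Λ)
    (hz : z ∈ Ω) {P : VV n →L[ℝ] V n} (hP : ∀ w, ‖P w‖ ≤ ‖w‖) (hPO : ∀ z ∈ Ω, P z ∈ O) {s' : MF n}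
    (js : ∀ i j, B1 Ω (fun z => s' (P z) i j) 2 (Λ / R) z) (i : Fin n) :
    B1 Ω (fun z => nu s' l (P z) i) (2 * n * Λ₀) (bv n Λ₀ Λ) z := by
  have hR := h.R0
  have R1 := h.dt.R1
  have hx := hPO z hz
  have LR : Λ / R ≤ Λ := div_le_self (by linarith) R1
  have L0 : 0 ≤ Λ / R := by positivity
  have hp : ∀ j, B1 Ω (fun z => pd j l (P z)) Λ₀ (Λ / R) z := by
    intro j
    refine B1_pr (h := fun x => fderiv ℝ l x (Pi.single j 1)) hP h.dt.oO hPO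
      (sm_fw h.dt.oO h.dt.sl _) hz ?_ fun w hw => ?_
    · refine (h.l1 hx _).trans ?_
      exact mul_le_of_le_one_right (by linarith) (Vale.Agent.P088.R2.H464.Cu.norm_single_le j)
    · refine (h.l2 hx _ w).trans ?_
      refine (mul_le_of_le_one_right (by positivity) hw).trans ?_
      exact mul_le_of_le_one_right L0 (Vale.Agent.P088.R2.H464.Cu.norm_single_le j)
  have := B1.sum Finset.univ h.dt.oΩ hz fun j _ => (js i j).mul h.dt.oΩ hz (hp j)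
  refine this.mono ?_ ?_
  · simp only [Finset.card_univ, Fintype.card_fin]
    exact le_of_eq (by ring)
  · simp only [Finset.card_univ, Fintype.card_fin]
    unfold bv
    have : 2 * (Λ / R) + Λ / R * Λ₀ ≤ Λ * (2 + Λ₀) := by nlinarith
    gcongr

/-- `x = e^u + s Φ'(u)`. -/
def Xs (s : ℝ) (l : V n → ℝ) (Φ : ℝ → ℝ) (z : VV n) : ℝ :=
  Real.exp (uf l z) + s * deriv Φ (uf l z)

theorem Xs_pos (h : Hz Λ₀ a c₁ β Λ δ ε s R l g s₁ s₂ Φ S O Ω) (hz : z ∈ Ω) : 0 < Xs s l Φ z := by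
  have hN := h.dt.N0 z hz
  have s0 := h.s0
  unfold Xs
  positivity

theorem b_q (h : Hz Λ₀ a c₁ β Λ δ ε s R l g s₁ s₂ Φ S O Ω) (hΛ₀ : 1 ≤ Λ₀) (hΛ : 1 ≤ Λ)
    (hz : z ∈ Ω) (hc₂ : 0 ≤ c₂) (hν : ∀ i, B1 Ω (ν i) (2 * n * Λ₀) (bv n Λ₀ Λ) z)
    (sg : Sg σ (Λ / R) Ω z) (i j : Fin n) : B1 Ω (Qs c₂ s l Φ ν σ i j)
      (c₂ * (a0 n Λ₀ * Xs s l Φ z)) (c₂ * (a1 n Λ₀ Λ * Xs s l Φ z)) z := by
  have hR := h.R0
  have oΩ := h.dt.oΩ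
  have s0 := h.s0
  have L0 : 0 ≤ Λ / R := by positivity
  have LR : Λ / R ≤ Λ := div_le_self (by linarith) h.dt.R1
  have b0 := bv_nonneg n hΛ₀ hΛ
  have hN := h.dt.N0 z hz
  have hE := Real.exp_pos (uf l z)
  have h1 := (hν i).mul oΩ hz (hν j)
  have h2 := (b_E h hΛ₀ hz).mul oΩ hz h1
  have h3 := ((b_N h hΛ₀ hz).cmul oΩ hz s0.le).mul oΩ hz (B1.of_J L0 (sg.j0 i j))
  have h4 := (h2.add oΩ hz h3).cmul oΩ hz hc₂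
  have sN : 0 ≤ s * deriv Φ (uf l z) := by positivity
  refine h4.mono ?_ ?_
  · refine mul_le_mul_of_nonneg_left ?_ hc₂
    unfold a0 Xs
    have e1 : 0 ≤ (4 * n ^ 2 * Λ₀ ^ 2 : ℝ) * (s * deriv Φ (uf l z)) := by positivity
    nlinarith
  · refine mul_le_mul_of_nonneg_left ?_ hc₂
    unfold a1 Xs
    have e1 : 0 ≤ (2 * (2 * n * Λ₀) * bv n Λ₀ Λ + 2 * Λ₀ * (4 * n ^ 2 * Λ₀ ^ 2)) *
        (s * deriv Φ (uf l z)) := by positivity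
    have e2 : 0 ≤ Λ * (1 + 4 * Λ₀) * Real.exp (uf l z) := by positivity
    have e3 : s * deriv Φ (uf l z) * (Λ / R) ≤ s * deriv Φ (uf l z) * Λ := by gcongr
    nlinarith

theorem dq_le (h : Hz Λ₀ a c₁ β Λ δ ε s R l g s₁ s₂ Φ S O Ω) (hΛ₀ : 1 ≤ Λ₀) (hΛ : 1 ≤ Λ)
    (ha : 0 < a) (hC : 1 ≤ C) (hz : z ∈ Ω) (wb : WB C R l Φ (W0 l g Φ S) z)
    (hW : ∀ w ∈ Ω, W w = W0 l g Φ S w) (hc₂ : 0 ≤ c₂)
    (hν : ∀ i, B1 Ω (ν i) (2 * n * Λ₀) (bv n Λ₀ Λ) z) (sg : Sg σ (Λ / R) Ω z) :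
    |dq σ (Qs c₂ s l Φ ν σ) W z| ≤
      c₂ * (kS n Λ₀ a Λ C * (Xs s l Φ z * deriv Φ (uf l z))) := by
  have oΩ := h.dt.oΩ
  have hN := h.dt.N0 z hz
  have X0 := Xs_pos h hz
  unfold dq
  refine (Vale.Agent.P088.R2.H464.Cu.sum_le1 (c := n * (c₂ * (a0 n Λ₀ * Xs s l Φ z) *
    (pW C Λ a * deriv Φ (uf l z)) + c₂ * (a1 n Λ₀ Λ * Xs s l Φ z) *
    (pW C Λ a * deriv Φ (uf l z)))) fun j => ?_).trans ?_
  · rw [sg.k, zero_mul, add_zero, sg.D]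
    have e : (fun z => ∑ i, Qs c₂ s l Φ ν σ i j z * σ.D i W z) =
        fun z => ∑ i, Qs c₂ s l Φ ν σ i j z * dv (σ.e i) W z := by
      funext y
      exact Finset.sum_congr rfl fun i _ => by rw [sg.D]
    rw [e]
    have := B1.sum Finset.univ oΩ hz fun i _ => (b_q h hΛ₀ hΛ hz hc₂ hν sg i j).mul oΩ hz
      (b_W h ha hΛ hC hz wb hW (sg.e i))
    refine (this.b1 _ (sg.e j)).trans (le_of_eq ?_)
    simp only [Finset.card_univ, Fintype.card_fin]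
  · unfold kS
    have p : 0 ≤ Xs s l Φ z * deriv Φ (uf l z) := by positivity
    have e : (n : ℝ) * (n * (c₂ * (a0 n Λ₀ * Xs s l Φ z) * (pW C Λ a * deriv Φ (uf l z)) +
        c₂ * (a1 n Λ₀ Λ * Xs s l Φ z) * (pW C Λ a * deriv Φ (uf l z)))) =
        c₂ * ((n ^ 2 * ((a0 n Λ₀ + a1 n Λ₀ Λ) * pW C Λ a)) *
          (Xs s l Φ z * deriv Φ (uf l z))) := by ring
    rw [e]
    gcongr
    linarith

theorem sx_nu (h : Hz Λ₀ a c₁ β Λ δ ε s R l g s₁ s₂ Φ S O Ω) (hΛ₀ : 1 ≤ Λ₀) (hΛ : 1 ≤ Λ)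
    (hz : z ∈ Ω) (i : Fin n) : B1 Ω (fun z => nu s₁ l z.1 i) (2 * n * Λ₀) (bv n Λ₀ Λ) z := by
  have hR := h.R0
  exact b_nu h hΛ₀ hΛ hz (P := ContinuousLinearMap.fst ℝ (V n) (V n)) (fun w => norm_fst_le w)
    (fun z hz => (h.dt.pt z hz).1)
    (fun i j => B1.of_J (by positivity) ((h.sg₁ (by linarith) hz).j0 i j)) i

theorem sy_nu (h : Hz Λ₀ a c₁ β Λ δ ε s R l g s₁ s₂ Φ S O Ω) (hΛ₀ : 1 ≤ Λ₀) (hΛ : 1 ≤ Λ)
    (hz : z ∈ Ω) (i : Fin n) : B1 Ω (fun z => nu s₂ l z.2 i) (2 * n * Λ₀) (bv n Λ₀ Λ) z := by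
  have hR := h.R0
  exact b_nu h hΛ₀ hΛ hz (P := ContinuousLinearMap.snd ℝ (V n) (V n)) (fun w => norm_snd_le w)
    (fun z hz => (h.dt.pt z hz).2.1)
    (fun i j => B1.of_J (by positivity) ((h.sg₂ (by linarith) hz).j0 i j)) i

/-- The smoothness of the forms and of the margin. -/
theorem smooth_z0 (h : Hz Λ₀ a c₁ β Λ δ ε s R l g s₁ s₂ Φ S O Ω) (hΛ₀ : 1 ≤ Λ₀) (hΛ : 1 ≤ Λ)
    (hz : z ∈ Ω) (hc₂ : 0 ≤ c₂) : (∀ i j, ContDiffOn ℝ ∞ (Q1 c₂ s l s₁ Φ i j) Ω) ∧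
      (∀ i j, ContDiffOn ℝ ∞ (Q2 c₂ s l s₂ Φ i j) Ω) ∧ ContDiffOn ℝ ∞ (mg c₂ s l Φ) Ω :=
  ⟨fun i j => (b_q h hΛ₀ hΛ hz hc₂ (sx_nu h hΛ₀ hΛ hz) (h.sg₁ (by linarith) hz) i j).sm,
    fun i j => (b_q h hΛ₀ hΛ hz hc₂ (sy_nu h hΛ₀ hΛ hz) (h.sg₂ (by linarith) hz) i j).sm,
    contDiffOn_const.mul (contDiffOn_const.mul (b_N h hΛ₀ hz).sm)⟩

theorem DW_eq (h : Hz Λ₀ a c₁ β Λ δ ε s R l g s₁ s₂ Φ S O Ω) (hz : z ∈ Ω)
    (sg : Sg σ (Λ / R) Ω z) (hW : ∀ w ∈ Ω, W w = W0 l g Φ S w) :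
    (fun i => σ.D i W z) = fun i => σ.D i (W0 l g Φ S) z := by
  funext i
  rw [sg.D, sg.D]
  exact dv_congr h.dt.oΩ hW _ hz

/-- The smallness of one slot. -/
theorem smQ_gen (h : Hz Λ₀ a c₁ β Λ δ ε s R l g s₁ s₂ Φ S O Ω) (hΛ₀ : 1 ≤ Λ₀) (hΛ : 1 ≤ Λ)
    (ha : 0 < a) (hC : 1 ≤ C) (hη : 0 ≤ η) (hδ : kS n Λ₀ a Λ C * δ ≤ η * cQ n Λ₀) (hz : z ∈ Ω)
    (wb : WB C R l Φ (W0 l g Φ S) z) (hW : ∀ w ∈ Ω, W w = W0 l g Φ S w) (hc₂ : 0 ≤ c₂)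
    (hν : ∀ i, B1 Ω (ν i) (2 * n * Λ₀) (bv n Λ₀ Λ) z) (sg : Sg σ (Λ / R) Ω z)
    (hq : c₂ * cQ n Λ₀ * (Xs s l Φ z * deriv Φ (uf l z) ^ 2) ≤
      qq (Qs c₂ s l Φ ν σ) (fun i => σ.D i W z) z)
    (hf : ∀ A : Fin n → ℝ, 1 / 4 * ∑ i, A i ^ 2 ≤ ∑ i, ∑ j, σ.s i j z * A i * A j)
    (v : VV n → ℝ) :
    SmQ σ W (Qs c₂ s l Φ ν σ) (mg c₂ s l Φ) (fun _ _ => 0) v η (2 * n) z := by
  have hN := h.dt.N0 z hz
  have hE := Real.exp_pos (uf l z)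
  have s0 := h.s0
  have X0 := Xs_pos h hz
  have m0 : 0 ≤ mg c₂ s l Φ z := by unfold mg; positivity
  refine ⟨m0, fun A => ?_, sK_of sg, ?_, ?_, fun a => ?_, ?_⟩
  · have e : qq (Qs c₂ s l Φ ν σ) A z = c₂ * (Real.exp (uf l z) * (∑ i, ν i z * A i) ^ 2 +
        s * deriv Φ (uf l z) * ∑ i, ∑ j, σ.s i j z * A i * A j) :=
      qq_gen c₂ (Real.exp (uf l z)) (s * deriv Φ (uf l z)) (fun i => ν i z)
        (fun i j => σ.s i j z) A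
    rw [e]
    unfold mg
    have h1 := hf A
    have h2 : 0 ≤ Real.exp (uf l z) * (∑ i, ν i z * A i) ^ 2 := by positivity
    calc c₂ / 4 * (s * deriv Φ (uf l z)) * ∑ i, A i ^ 2 =
        c₂ * (s * deriv Φ (uf l z) * (1 / 4 * ∑ i, A i ^ 2)) := by ring
      _ ≤ c₂ * (s * deriv Φ (uf l z) * ∑ i, ∑ j, σ.s i j z * A i * A j) := by gcongr
      _ ≤ _ := by
        refine mul_le_mul_of_nonneg_left ?_ hc₂
        linarith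
  · refine (dq_le h hΛ₀ hΛ ha hC hz wb hW hc₂ hν sg).trans ?_
    refine le_trans ?_ (mul_le_mul_of_nonneg_left hq hη)
    have k0 := kS_pos n hΛ₀ hΛ ha hC
    have hN1 := h.N1 z hz
    have e1 : deriv Φ (uf l z) ≤ δ * deriv Φ (uf l z) ^ 2 := by nlinarith
    calc c₂ * (kS n Λ₀ a Λ C * (Xs s l Φ z * deriv Φ (uf l z))) ≤
        c₂ * (kS n Λ₀ a Λ C * (Xs s l Φ z * (δ * deriv Φ (uf l z) ^ 2))) := by gcongr
      _ = (kS n Λ₀ a Λ C * δ) * (c₂ * (Xs s l Φ z * deriv Φ (uf l z) ^ 2)) := by ring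
      _ ≤ (η * cQ n Λ₀) * (c₂ * (Xs s l Φ z * deriv Φ (uf l z) ^ 2)) := by gcongr
      _ = _ := by ring
  · rw [dF_zero, abs_zero]
    refine mul_nonneg hη (le_trans ?_ hq)
    have := cQ_pos n Λ₀
    positivity
  · rw [eC_zero, abs_zero]
    have : 0 ≤ H747.SW.Ys σ W a z := Finset.sum_nonneg fun i _ => sq_nonneg _
    positivity
  · simp only [ne_eq, OfNat.ofNat_ne_zero, not_false_eq_true, zero_pow, Finset.sum_const_zero,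
      mul_zero]
    positivity

theorem hf₁ (h : Hz Λ₀ a c₁ β Λ δ ε s R l g s₁ s₂ Φ S O Ω) (hz : z ∈ Ω) :
    (El (sx s₁) z ∧ El (sy s₂) z) ∧
    (∀ A : Fin n → ℝ, 1 / 4 * ∑ i, A i ^ 2 ≤ ∑ i, ∑ j, (sx s₁).s i j z * A i * A j) ∧
    ∀ A : Fin n → ℝ, 1 / 4 * ∑ i, A i ^ 2 ≤ ∑ i, ∑ j, (sy s₂).s i j z * A i * A j := by
  obtain ⟨hx, hy, -⟩ := h.dt.pt z hz
  have e1 := fun A : Fin n → ℝ => el_bf h.εn (fun i j => h.n₁.b0 _ hx i j) A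
  have e2 := fun A : Fin n → ℝ => el_bf h.εn (fun i j => h.n₂.b0 _ hy i j) A
  refine ⟨⟨⟨fun A => (e1 A).1, fun A => (e1 A).2⟩, ⟨fun A => (e2 A).1, fun A => (e2 A).2⟩⟩,
    fun A => ?_, fun A => ?_⟩
  · have := (e1 A).2
    have h0 : 0 ≤ ∑ i, A i ^ 2 := Finset.sum_nonneg fun i _ => sq_nonneg _
    have h1 : ∑ i, A i ^ 2 ≤ 2 * ∑ i, ∑ j, (sx s₁).s i j z * A i * A j := this
    linarith
  · have := (e2 A).2
    have h0 : 0 ≤ ∑ i, A i ^ 2 := Finset.sum_nonneg fun i _ => sq_nonneg _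
    have h1 : ∑ i, A i ^ 2 ≤ 2 * ∑ i, ∑ j, (sy s₂).s i j z * A i * A j := this
    linarith

/-- Ellipticity. -/
theorem el_z0 (h : Hz Λ₀ a c₁ β Λ δ ε s R l g s₁ s₂ Φ S O Ω) (hz : z ∈ Ω) :
    El (sx s₁) z ∧ El (sy s₂) z := (hf₁ h hz).1

/-- **The smallness of the two slots.** -/
theorem smQ_z0 (h : Hz Λ₀ a c₁ β Λ δ ε s R l g s₁ s₂ Φ S O Ω) (hΛ₀ : 1 ≤ Λ₀) (hΛ : 1 ≤ Λ)
    (ha : 0 < a) (hC : 1 ≤ C) (hβ1 : β ≤ 1) (hβ : kX n Λ₀ a * β ≤ 1) (hη : 0 ≤ η)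
    (hδ : kS n Λ₀ a Λ C * δ ≤ η * cQ n Λ₀) (hz : z ∈ Ω)
    (wb : WB C R l Φ (W0 l g Φ S) z) (hW : ∀ w ∈ Ω, W w = W0 l g Φ S w) (hc₂ : 0 ≤ c₂)
    (v : VV n → ℝ) :
    SmQ (sx s₁) W (Q1 c₂ s l s₁ Φ) (mg c₂ s l Φ) (fun _ _ => 0) v η (2 * n) z ∧
      SmQ (sy s₂) W (Q2 c₂ s l s₂ Φ) (mg c₂ s l Φ) (fun _ _ => 0) v η (2 * n) z := by
  have Λ0 : 0 ≤ Λ := by linarith
  have q := qDW_ge h hΛ₀ ha hβ1 hβ hz hc₂
  have f := (hf₁ h hz).2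
  constructor
  · rw [Q1_eq]
    refine smQ_gen h hΛ₀ hΛ ha hC hη hδ hz wb hW hc₂ (sx_nu h hΛ₀ hΛ hz) (h.sg₁ Λ0 hz) ?_ f.1 v
    rw [DW_eq h hz (h.sg₁ Λ0 hz) hW]
    exact q.1
  · rw [Q2_eq]
    refine smQ_gen h hΛ₀ hΛ ha hC hη hδ hz wb hW hc₂ (sy_nu h hΛ₀ hΛ hz) (h.sg₂ Λ0 hz) ?_ f.2 v
    rw [DW_eq h hz (h.sg₂ Λ0 hz) hW]
    exact q.2

/-- The numbers of one slot. -/
theorem ns_gen (h : Hz Λ₀ a c₁ β Λ δ ε s R l g s₁ s₂ Φ S O Ω) (hΛ₀ : 1 ≤ Λ₀) (hΛ : 1 ≤ Λ)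
    (ha : 0 < a) (hC : 1 ≤ C) (hδ1 : δ ≤ 1) (hz : z ∈ Ω)
    (wb : WB C R l Φ (W0 l g Φ S) z) (hW : ∀ w ∈ Ω, W w = W0 l g Φ S w) (hc₂ : 0 ≤ c₂)
    (sg : Sg σ (Λ / R) Ω z) {q : Fin n → Fin n → VV n → ℝ}
    (hq : c₂ * cQ n Λ₀ * (Xs s l Φ z * deriv Φ (uf l z) ^ 2) ≤ qq q (fun i => σ.D i W z) z)
    (hu : ∀ A : Fin n → ℝ, qq q A z ≤ c₂ * (4 * n ^ 3 * Λ₀ ^ 2 + 2 * n ^ 2) *
      (Xs s l Φ z * ∑ i, A i ^ 2)) {ν : Tab.Nu (VV n)}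
    (hE : ν.En = fun y => Real.exp (uf l y)) (hN : ν.N = fun y => deriv Φ (uf l y))
    (hK : ν.K = fun y => deriv (deriv Φ) (uf l y)) :
    Ns σ 0 W q ν (c₂ * cQ n Λ₀) (C1 n Λ₀ a Λ C c₂) s z := by
  have oΩ := h.dt.oΩ
  have N0 := h.dt.N0 z hz
  have K0 := h.dt.K0 z hz
  have E0 := Real.exp_pos (uf l z)
  have s0 := h.s0
  have X0 := Xs_pos h hz
  have hR := h.R0
  have N1 : 1 ≤ deriv Φ (uf l z) := by
    have h1 := h.N1 z hz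
    nlinarith
  have NN : deriv Φ (uf l z) ≤ deriv Φ (uf l z) ^ 2 := by nlinarith
  have p0 := pW_pos hC hΛ ha
  obtain ⟨g1, g2, g3, g4, g5, g6, g7⟩ := C1_ge n hΛ₀ hΛ ha hC hc₂
  have ex : xf ν s = fun y => Real.exp (uf l y) + s * deriv Φ (uf l y) := by
    funext y; unfold xf; rw [hE, hN]
  have exz : xf ν s z = Xs s l Φ z := by rw [ex]; rfl
  have hNz : ν.N z = deriv Φ (uf l z) := by rw [hN]
  have hKz : ν.K z = deriv (deriv Φ) (uf l z) := by rw [hK]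
  have LR : Λ / R ≤ Λ := div_le_self (by linarith) h.dt.R1
  have L0 : 0 ≤ Λ / R := by positivity
  have sq_of : ∀ {t u : ℝ}, |t| ≤ u → t ^ 2 ≤ u ^ 2 := by
    intro t u ht
    rw [← sq_abs]
    have := abs_nonneg t
    gcongr
  refine ⟨?_, fun A => ?_, ?_, ?_, ?_, ?_⟩
  · rw [exz, hNz]
    exact hq
  · rw [exz, hKz]
    have A0 : 0 ≤ ∑ i, A i ^ 2 := Finset.sum_nonneg fun i _ => sq_nonneg _
    refine (hu A).trans ?_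
    calc c₂ * (4 * n ^ 3 * Λ₀ ^ 2 + 2 * n ^ 2) * (Xs s l Φ z * ∑ i, A i ^ 2) ≤
        C1 n Λ₀ a Λ C c₂ * ((deriv (deriv Φ) (uf l z) + Xs s l Φ z) * ∑ i, A i ^ 2) := by
          gcongr
          linarith
      _ = _ := by ring
  · rw [hNz]
    have : ∀ i, σ.D i W z ^ 2 ≤ (pW C Λ a * deriv Φ (uf l z)) ^ 2 := by
      intro i
      rw [sg.D]
      exact sq_of (b_W h ha hΛ hC hz wb hW (sg.e i)).b0
    calc ∑ i, σ.D i W z ^ 2 ≤ ∑ _i : Fin n, (pW C Λ a * deriv Φ (uf l z)) ^ 2 :=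
          Finset.sum_le_sum fun i _ => this i
      _ = (n * pW C Λ a ^ 2) * deriv Φ (uf l z) ^ 2 := by
          rw [Finset.sum_const, Finset.card_univ, Fintype.card_fin, nsmul_eq_mul]; ring
      _ ≤ _ := by gcongr
  · rw [hNz, sg.lam W]
    refine (Vale.Agent.P088.R2.H464.Cu.sum_le2
      (c := (2 + Λ) * pW C Λ a * deriv Φ (uf l z)) fun i j => ?_).trans ?_
    · have w1 := b_W h ha hΛ hC hz wb hW (sg.e j)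
      have h1 := (sg.j0 i j).b0
      have h2 := (sg.j1 i j i).b0
      have h3 := w1.b0
      have h4 := w1.b1 _ (sg.e i)
      have P0 : 0 ≤ pW C Λ a * deriv Φ (uf l z) := by positivity
      refine (abs_add_le _ _).trans ?_
      rw [abs_mul, abs_mul]
      calc _ ≤ 2 * (pW C Λ a * deriv Φ (uf l z)) + Λ / R * (pW C Λ a * deriv Φ (uf l z)) := by
            gcongr
        _ ≤ 2 * (pW C Λ a * deriv Φ (uf l z)) + Λ * (pW C Λ a * deriv Φ (uf l z)) := by gcongr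
        _ = _ := by ring
    · calc (n : ℝ) ^ 2 * ((2 + Λ) * pW C Λ a * deriv Φ (uf l z)) =
          (n ^ 2 * ((2 + Λ) * pW C Λ a)) * deriv Φ (uf l z) := by ring
        _ ≤ C1 n Λ₀ a Λ C c₂ * deriv Φ (uf l z) ^ 2 := by gcongr
  · simp
  · rw [exz, hNz, ex]
    have bx : B1 Ω (fun y => Real.exp (uf l y) + s * deriv Φ (uf l y)) (Xs s l Φ z)
        (2 * Λ₀ * Λ * Xs s l Φ z) z := by
      refine ((b_E h hΛ₀ hz).add oΩ hz ((b_N h hΛ₀ hz).cmul oΩ hz s0.le)).mono le_rfl ?_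
      unfold Xs
      have : 0 ≤ 2 * Λ₀ * (Λ - 1) * Real.exp (uf l z) := by
        have : 0 ≤ Λ - 1 := by linarith
        positivity
      nlinarith
    have : ∀ i, σ.D i (fun y => Real.exp (uf l y) + s * deriv Φ (uf l y)) z ^ 2 ≤
        (2 * Λ₀ * Λ * Xs s l Φ z) ^ 2 := by
      intro i
      rw [sg.D]
      exact sq_of (bx.b1 _ (sg.e i))
    calc ∑ i, σ.D i (fun y => Real.exp (uf l y) + s * deriv Φ (uf l y)) z ^ 2 ≤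
        ∑ _i : Fin n, (2 * Λ₀ * Λ * Xs s l Φ z) ^ 2 := Finset.sum_le_sum fun i _ => this i
      _ = (n * (2 * Λ₀ * Λ) ^ 2) * (Xs s l Φ z * 1) ^ 2 := by
          rw [Finset.sum_const, Finset.card_univ, Fintype.card_fin, nsmul_eq_mul]; ring
      _ ≤ _ := by gcongr

/-- **The numbers of zone 0.** -/
theorem ns_z0 (h : Hz Λ₀ a c₁ β Λ δ ε s R l g s₁ s₂ Φ S O Ω) (hΛ₀ : 1 ≤ Λ₀) (hΛ : 1 ≤ Λ)
    (ha : 0 < a) (hC : 1 ≤ C) (hβ1 : β ≤ 1) (hβ : kX n Λ₀ a * β ≤ 1) (hδ1 : δ ≤ 1) (hz : z ∈ Ω)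
    (wb : WB C R l Φ (W0 l g Φ S) z) (hW : ∀ w ∈ Ω, W w = W0 l g Φ S w) (hc₂ : 0 ≤ c₂)
    {ν : Tab.Nu (VV n)} (hE : ν.En = fun y => Real.exp (uf l y))
    (hN : ν.N = fun y => deriv Φ (uf l y)) (hK : ν.K = fun y => deriv (deriv Φ) (uf l y)) :
    Nz (mg c₂ s l Φ) ν (C1 n Λ₀ a Λ C c₂) s z ∧
      Ns (sx s₁) 0 W (Q1 c₂ s l s₁ Φ) ν (c₂ * cQ n Λ₀) (C1 n Λ₀ a Λ C c₂) s z ∧
      Ns (sy s₂) 0 W (Q2 c₂ s l s₂ Φ) ν (c₂ * cQ n Λ₀) (C1 n Λ₀ a Λ C c₂) s z := by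
  have Λ0 : 0 ≤ Λ := by linarith
  have q := qDW_ge h hΛ₀ ha hβ1 hβ hz hc₂
  have N0 := h.dt.N0 z hz
  have K0 := h.dt.K0 z hz
  have E0 := Real.exp_pos (uf l z)
  have s0 := h.s0
  have X0 := Xs_pos h hz
  have N1 : 1 ≤ deriv Φ (uf l z) := by
    have h1 := h.N1 z hz
    nlinarith
  obtain ⟨g1, g2, g3, g4, g5, g6, g7⟩ := C1_ge n hΛ₀ hΛ ha hC hc₂
  have ex : xf ν s z = Real.exp (uf l z) + s * deriv Φ (uf l z) := by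
    unfold xf; rw [hE, hN]
  have ed : ∀ A : Fin n → ℝ, H464.Cu.dt A A = ∑ i, A i ^ 2 := by
    intro A
    unfold H464.Cu.dt
    exact Finset.sum_congr rfl fun i _ => by ring
  refine ⟨⟨?_, ?_, ?_, ?_, ?_⟩, ?_, ?_⟩
  · rw [hE]; exact E0.le
  · rw [hK]; exact K0.le
  · rw [hN]; exact N1
  · rw [ex, hN]
    have h1 : Real.exp (uf l z) ≤ 1 / a * deriv Φ (uf l z) := by
      have := h.EN z hz
      rw [one_div, ← div_eq_inv_mul, le_div_iff₀ ha]; linarith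
    have h2 : s * deriv Φ (uf l z) ≤ 1 * deriv Φ (uf l z) := by
      have := h.s1
      gcongr
    have h3 := mul_le_mul_of_nonneg_right g5 N0.le
    beta_reduce
    linarith
  · rw [ex]
    unfold mg
    have h1 : 0 ≤ s * deriv Φ (uf l z) := by positivity
    calc c₂ / 4 * (s * deriv Φ (uf l z)) ≤ C1 n Λ₀ a Λ C c₂ * (s * deriv Φ (uf l z)) := by
          gcongr; linarith
      _ ≤ _ := by gcongr; linarith
  · refine ns_gen h hΛ₀ hΛ ha hC hδ1 hz wb hW hc₂ (h.sg₁ Λ0 hz) ?_ (fun A => ?_) hE hN hK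
    · rw [DW_eq h hz (h.sg₁ Λ0 hz) hW]
      exact q.1
    · have := (qq_up h hΛ₀ hz hc₂ A).1
      rw [ed] at this
      exact this
  · refine ns_gen h hΛ₀ hΛ ha hC hδ1 hz wb hW hc₂ (h.sg₂ Λ0 hz) ?_ (fun A => ?_) hE hN hK
    · rw [DW_eq h hz (h.sg₂ Λ0 hz) hW]
      exact q.2
    · have := (qq_up h hΛ₀ hz hc₂ A).2
      rw [ed] at this
      exact this

end slot

end Vale.Agent.P088.R2.H794.Z0
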